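import Vale.Agent.P331.Defs

/-!
Deterministic facts: greedy levels, and what the online rule collects.
-/

open MeasureTheory Finset
open scoped ENNReal NNReal

namespace Vale.Agent.P331

set_option linter.unusedSectionVars false

variable {E : Type} [Fintype E] [DecidableEq E] {M : Matroid E}

theorem mem_indepOf {k : ℕ} {I : Finset E} : I ∈ indepOf M k ↔ M.Indep (I : Set E) ∧ I.card = k := by
  classical
  simp [indepOf]

theorem mem_allIndep {I : Finset E} : I ∈ allIndep M ↔ M.Indep (I : Set E) := by
  classical
  simp [allIndep]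

theorem level_mono {k : ℕ} {x y : E → ℝ≥0∞} (h : ∀ e, x e ≤ y e) : level M k x ≤ level M k y := by
  refine Finset.sup_mono_fun (fun I _ => ?_)
  exact Finset.le_inf (fun e he => (Finset.inf_le he).trans (h e))

theorem le_level {k : ℕ} {x : E → ℝ≥0∞} {y : ℝ≥0∞} {I : Finset E} (hI : M.Indep (I : Set E))
    (hk : I.card = k) (h : ∀ e ∈ I, y ≤ x e) : y ≤ level M k x :=
  le_trans (Finset.le_inf h) (Finset.le_sup (f := fun I : Finset E => I.inf x) (mem_indepOf.2 ⟨hI, hk⟩))

theorem exists_of_level_ne_zero {k : ℕ} {x : E → ℝ≥0∞} (h : level M k x ≠ 0) :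
    ∃ I : Finset E, M.Indep (I : Set E) ∧ I.card = k ∧ ∀ e ∈ I, level M k x ≤ x e := by
  have hne : (indepOf M k).Nonempty := by
    by_contra hemp
    rw [Finset.not_nonempty_iff_eq_empty] at hemp
    apply h
    simp [level, hemp]
  obtain ⟨I, hI, hI2⟩ := Finset.exists_mem_eq_sup (indepOf M k) hne (fun I => I.inf x)
  obtain ⟨h1, h2⟩ := mem_indepOf.1 hI
  refine ⟨I, h1, h2, fun e he => ?_⟩
  simp only [level] at *
  rw [hI2]
  exact Finset.inf_le he

theorem level_antitone {k n : ℕ} (hkn : k ≤ n) (x : E → ℝ≥0∞) : level M n x ≤ level M k x := by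
  refine Finset.sup_le (fun I hI => ?_)
  obtain ⟨h1, h2⟩ := mem_indepOf.1 hI
  obtain ⟨J, hJ, hJ2⟩ := Finset.exists_subset_card_eq (s := I) (n := k) (by omega)
  refine le_trans (Finset.inf_mono hJ) ?_
  exact Finset.le_sup (f := fun I : Finset E => I.inf x)
    (mem_indepOf.2 ⟨h1.subset (by exact_mod_cast hJ), hJ2⟩)

/-- The sum over an independent set is at most the sum of the levels. -/
theorem sum_le_levels (x : E → ℝ≥0∞) (I : Finset E) (hI : M.Indep (I : Set E)) :
    ∑ e ∈ I, x e ≤ ∑ i ∈ Finset.Ico 1 (I.card + 1), level M i x := by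
  induction h : I.card generalizing I with
  | zero =>
      have : I = ∅ := Finset.card_eq_zero.1 h
      simp [this]
  | succ c ih =>
      have hne : I.Nonempty := Finset.card_pos.1 (by omega)
      obtain ⟨a, ha, hmin⟩ := Finset.exists_min_image I x hne
      have hIa : M.Indep ((I.erase a : Finset E) : Set E) := hI.subset (by
        simp only [Finset.coe_erase]
        exact Set.sdiff_subset)
      have hcard : (I.erase a).card = c := by
        rw [Finset.card_erase_of_mem ha]; omega
      have hlev : x a ≤ level M (c + 1) x := le_level hI h hmin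
      rw [← Finset.add_sum_erase I x ha, Finset.sum_Ico_succ_top (show 1 ≤ c + 1 by omega), add_comm]
      exact add_le_add (ih _ hIa hcard) hlev

theorem card_le_rank {I : Finset E} (hI : M.Indep (I : Set E)) : I.card ≤ rankOf M :=
  Finset.le_sup (f := Finset.card) (mem_allIndep.2 hI)

/-- The optimum is bounded by dyadic levels. -/
theorem opt_le_dyadic (x : E → ℝ≥0) :
    optOf M x ≤ ∑ k ∈ Finset.range (Nat.log 2 (rankOf M) + 1),
      2 ^ k * level M (2 ^ k) (fun e => (x e : ℝ≥0∞)) := by
  refine Finset.sup_le (fun I hI => ?_)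
  have hI' := mem_allIndep.1 hI
  refine (sum_le_levels (fun e => (x e : ℝ≥0∞)) I hI').trans ?_
  have hc : I.card + 1 ≤ 2 ^ (Nat.log 2 (rankOf M) + 1) := by
    have h1 := card_le_rank hI'
    have h2 : rankOf M < 2 ^ (Nat.log 2 (rankOf M) + 1) := Nat.lt_pow_succ_log_self (by norm_num) _
    omega
  refine (Finset.sum_le_sum_of_subset (Finset.Ico_subset_Ico_right hc)).trans ?_
  have := Finset.le_sum_condensed' (f := fun i => level M i (fun e => (x e : ℝ≥0∞)))
    (fun m n _ hmn => level_antitone hmn _) (Nat.log 2 (rankOf M) + 1)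
  refine this.trans (le_of_eq ?_)
  refine Finset.sum_congr rfl (fun k _ => ?_)
  simp [nsmul_eq_mul]

/-! ### The online rule -/

section Run

variable {n : ℕ} (s : Option (Fin n)) (S V : E → ℝ≥0)

theorem run_spec (l : List E) (A : Finset E) (hA : M.Indep (A : Set E))
    (hAc : ∀ e ∈ A, passes M s S (V e)) :
    M.Indep ((run M s S V l A : Finset E) : Set E) ∧ A ⊆ run M s S V l A ∧
      (∀ e ∈ run M s S V l A, passes M s S (V e)) ∧
      ∀ e ∈ l, passes M s S (V e) → e ∈ run M s S V l A ∨
        ¬ M.Indep ((insert e (run M s S V l A) : Finset E) : Set E) := by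
  classical
  induction l generalizing A with
  | nil =>
      exact ⟨hA, subset_rfl, hAc, fun e he => absurd he (by simp)⟩
  | cons a l ih =>
      simp only [run]
      by_cases h : passes M s S (V a) ∧ M.Indep ((insert a A : Finset E) : Set E)
      · simp only [if_pos h]
        have hA2 : ∀ e ∈ insert a A, passes M s S (V e) := by
          intro e he
          rcases Finset.mem_insert.1 he with rfl | he
          · exact h.1
          · exact hAc e he
        obtain ⟨h1, h2, h3, h4⟩ := ih (insert a A) h.2 hA2
        refine ⟨h1, (Finset.subset_insert a A).trans h2, h3, ?_⟩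
        intro e he hp
        rcases List.mem_cons.1 he with rfl | he
        · exact Or.inl (h2 (Finset.mem_insert_self _ _))
        · exact h4 e he hp
      · simp only [if_neg h]
        obtain ⟨h1, h2, h3, h4⟩ := ih A hA hAc
        refine ⟨h1, h2, h3, ?_⟩
        intro e he hp
        rcases List.mem_cons.1 he with rfl | he
        · right
          intro hind
          apply h
          refine ⟨hp, hind.subset ?_⟩
          intro x hx
          simp only [Finset.coe_insert, Set.mem_insert_iff, Finset.mem_coe] at hx ⊢
          rcases hx with rfl | hx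
          · exact Or.inl rfl
          · exact Or.inr (h2 hx)
        · exact h4 e he hp

/-- Properties of the set accepted on a complete arrival order. -/
theorem run_props {l : List E} (hl : ∀ e, e ∈ l) :
    M.Indep ((run M s S V l ∅ : Finset E) : Set E) ∧
      (∀ e ∈ run M s S V l ∅, passes M s S (V e)) ∧
      ∀ e, passes M s S (V e) → e ∈ run M s S V l ∅ ∨
        ¬ M.Indep ((insert e (run M s S V l ∅) : Finset E) : Set E) := by
  obtain ⟨h1, _, h3, h4⟩ := run_spec s S V l ∅ (by simp) (by simp)
  exact ⟨h1, h3, fun e hp => h4 e (hl e) hp⟩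

/-- The accepted set is at least as large as any independent set of passing elements. -/
theorem card_le_run {l : List E} (hl : ∀ e, e ∈ l) {I : Finset E} (hI : M.Indep (I : Set E))
    (hp : ∀ e ∈ I, passes M s S (V e)) : I.card ≤ (run M s S V l ∅).card := by
  classical
  by_contra hlt
  push Not at hlt
  obtain ⟨h1, _, h3⟩ := run_props s S V hl
  obtain ⟨e, he, hnot, hind⟩ := h1.augment_finset hI hlt
  rcases h3 e (hp e he) with h | h
  · exact hnot h
  · apply h
    simpa using hind

end Run

end Vale.Agent.P331
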