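import Mathlib

/-!
Threshold rules with one sample per element on a matroid, against an order chosen with full
knowledge of the sample, the values and the seed.
-/

open MeasureTheory Finset
open scoped ENNReal NNReal

namespace Vale.Agent.P331

variable {E : Type} [Fintype E] [DecidableEq E]

open Classical in
/-- The independent sets of size `k`, as a finite family. -/
noncomputable def indepOf (M : Matroid E) (k : ℕ) : Finset (Finset E) :=
  univ.filter (fun I => M.Indep (I : Set E) ∧ I.card = k)

open Classical in
/-- All independent sets, as a finite family. -/
noncomputable def allIndep (M : Matroid E) : Finset (Finset E) :=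
  univ.filter (fun I => M.Indep (I : Set E))

/-- The rank: the largest size of an independent set. -/
noncomputable def rankOf (M : Matroid E) : ℕ := (allIndep M).sup Finset.card

/-- `OPT_M(x)`: the largest total value of an independent set. -/
noncomputable def optOf (M : Matroid E) (x : E → ℝ≥0) : ℝ≥0∞ :=
  (allIndep M).sup (fun I => ∑ e ∈ I, (x e : ℝ≥0∞))

/-- The `k`-th greedy level of `x`: the largest `y` such that some independent set of size `k`
has all values at least `y` (and `0` if there is no independent set of size `k`). -/
noncomputable def level (M : Matroid E) (k : ℕ) (x : E → ℝ≥0∞) : ℝ≥0∞ :=
  (indepOf M k).sup (fun I => I.inf x)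

/-- The threshold test of the rule with seed `s`, given the sample `S`: seed `none` accepts values
above the first level of the sample; seed `some j` accepts values at least the `2^j`-th level. -/
def passes (M : Matroid E) {n : ℕ} (s : Option (Fin n)) (S : E → ℝ≥0) (v : ℝ≥0) : Prop :=
  match s with
  | none => level M 1 (fun e => (S e : ℝ≥0∞)) < (v : ℝ≥0∞)
  | some j => level M (2 ^ (j : ℕ)) (fun e => (S e : ℝ≥0∞)) ≤ (v : ℝ≥0∞)

open Classical in
/-- The online rule with seed `s` and sample `S`: elements arrive along the list with their values
`V`; an element is accepted iff its value passes the threshold test and the accepted set stays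
independent. The decision on an element uses only `s`, `S`, the value of this element and the set
accepted so far. -/
noncomputable def run (M : Matroid E) {n : ℕ} (s : Option (Fin n)) (S V : E → ℝ≥0) :
    List E → Finset E → Finset E
  | [], A => A
  | e :: l, A =>
      run M s S V l (if passes M s S (V e) ∧ M.Indep ((insert e A : Finset E) : Set E)
        then insert e A else A)

/-- The value collected by a set of elements. -/
noncomputable def valueOf (V : E → ℝ≥0) (A : Finset E) : ℝ≥0∞ := ∑ e ∈ A, (V e : ℝ≥0∞)

end Vale.Agent.P331
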