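import Vale.Agent.P331.Main

/-!
Assembly.
-/

open MeasureTheory Finset
open scoped ENNReal NNReal

set_option linter.unusedSectionVars false

namespace Vale.Agent.P331

variable {E : Type} [Fintype E] [DecidableEq E] {M : Matroid E}
variable (D : E → Measure ℝ≥0) [∀ e, IsProbabilityMeasure (D e)]

theorem opt_le_opt (ω : E → ℝ≥0 × ℝ≥0) :
    optOf M (fun e => (ω e).2) ≤ optOf M (fun e => max (ω e).1 (ω e).2) := by
  refine Finset.sup_mono_fun (fun I _ => Finset.sum_le_sum (fun e _ => ?_))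
  exact_mod_cast le_max_right _ _

theorem lint_opt_le (n0 : ℕ) (hn0 : n0 = Nat.log 2 (rankOf M) + 1) :
    ∫⁻ ω, optOf M (fun e => (ω e).2) ∂(jointLaw D) ≤
      ∑ k ∈ Finset.range n0, 2 ^ k * ∫⁻ ω, level M (2 ^ k) (topOf ω) ∂(jointLaw D) := by
  have hpt : ∀ ω : E → ℝ≥0 × ℝ≥0, optOf M (fun e => (ω e).2) ≤
      ∑ k ∈ Finset.range n0, 2 ^ k * level M (2 ^ k) (topOf ω) := by
    intro ω
    rw [hn0]
    exact (opt_le_opt ω).trans (opt_le_dyadic (fun e => max (ω e).1 (ω e).2))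
  calc ∫⁻ ω, optOf M (fun e => (ω e).2) ∂(jointLaw D)
      ≤ ∫⁻ ω, ∑ k ∈ Finset.range n0, 2 ^ k * level M (2 ^ k) (topOf ω) ∂(jointLaw D) :=
        lintegral_mono hpt
    _ = ∑ k ∈ Finset.range n0, ∫⁻ ω, 2 ^ k * level M (2 ^ k) (topOf ω) ∂(jointLaw D) :=
        lintegral_finsetSum _ (fun k _ =>
          (measurable_level (2 ^ k) measurable_topOf).const_mul _)
    _ = ∑ k ∈ Finset.range n0, 2 ^ k * ∫⁻ ω, level M (2 ^ k) (topOf ω) ∂(jointLaw D) := by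
        refine Finset.sum_congr rfl (fun k _ => ?_)
        exact lintegral_const_mul' _ _ (by simp)

theorem bound_u0 : ∫⁻ ω, level M 1 (topOf ω) ∂(jointLaw D) ≤
    4 * (∫⁻ ω, zStrict M ω ∂(jointLaw D) + ∫⁻ ω, zLevel M 1 ω ∂(jointLaw D)) := by
  have h := avg_bound D (Z := fun ω => zStrict M ω + zLevel M 1 ω)
    (measurable_zStrict.add (measurable_zLevel 1)) (fun ω => level M 1 (topOf ω)) top_bound
  rwa [lintegral_add_left measurable_zStrict] at h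

theorem bound_level (k n : ℕ) (hkn : 3 * k ≤ n + 1) (hk : 1 ≤ k) :
    (k : ℝ≥0∞) * ∫⁻ ω, level M n (topOf ω) ∂(jointLaw D) ≤
      8 * ∫⁻ ω, zLevel M k ω ∂(jointLaw D) := by
  have h := avg_bound D (Z := fun ω => 2 * zLevel M k ω)
    ((measurable_zLevel k).const_mul 2) (fun ω => (k : ℝ≥0∞) * level M n (topOf ω))
    (level_bound k n hkn hk)
  rw [lintegral_const_mul' _ _ (by simp), lintegral_const_mul' _ _ (by simp)] at h
  refine h.trans (le_of_eq ?_)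
  rw [← mul_assoc]
  norm_num

theorem bound_u1 : 2 ^ 1 * ∫⁻ ω, level M (2 ^ 1) (topOf ω) ∂(jointLaw D) ≤
    16 * ∫⁻ ω, zLevel M 1 ω ∂(jointLaw D) := by
  have h := bound_level D (M := M) 1 2 (by norm_num) (by norm_num)
  simp only [Nat.cast_one, one_mul] at h
  calc 2 ^ 1 * ∫⁻ ω, level M (2 ^ 1) (topOf ω) ∂(jointLaw D)
      = 2 * ∫⁻ ω, level M 2 (topOf ω) ∂(jointLaw D) := by norm_num
    _ ≤ 2 * (8 * ∫⁻ ω, zLevel M 1 ω ∂(jointLaw D)) := by gcongr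
    _ = 16 * ∫⁻ ω, zLevel M 1 ω ∂(jointLaw D) := by
        rw [← mul_assoc]; norm_num

theorem bound_u (i : ℕ) : 2 ^ (i + 2) * ∫⁻ ω, level M (2 ^ (i + 2)) (topOf ω) ∂(jointLaw D) ≤
    32 * ∫⁻ ω, zLevel M (2 ^ i) ω ∂(jointLaw D) := by
  have hp : 1 ≤ 2 ^ i := Nat.one_le_two_pow
  have h := bound_level D (M := M) (2 ^ i) (2 ^ (i + 2)) (by rw [pow_add]; omega) hp
  calc 2 ^ (i + 2) * ∫⁻ ω, level M (2 ^ (i + 2)) (topOf ω) ∂(jointLaw D)
      = 4 * (((2 ^ i : ℕ) : ℝ≥0∞) * ∫⁻ ω, level M (2 ^ (i + 2)) (topOf ω) ∂(jointLaw D)) := by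
        push_cast
        rw [← mul_assoc, pow_add]
        congr 1
        norm_num
        ring
    _ ≤ 4 * (8 * ∫⁻ ω, zLevel M (2 ^ i) ω ∂(jointLaw D)) := by gcongr
    _ = 32 * ∫⁻ ω, zLevel M (2 ^ i) ω ∂(jointLaw D) := by
        rw [← mul_assoc]; norm_num

/-- The main estimate. -/
theorem final_bound (n0 : ℕ) (hn0 : n0 = Nat.log 2 (rankOf M) + 1)
    (π : Option (Fin n0) → (E → ℝ≥0 × ℝ≥0) → List E)
    (hπ : ∀ s ω e, e ∈ π s ω) :
    ∫⁻ ω, optOf M (fun e => (ω e).2) ∂(jointLaw D) ≤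
      52 * ∑ s, ∫⁻ ω, valueOf (fun e => (ω e).2)
        (run M s (fun e => (ω e).1) (fun e => (ω e).2) (π s ω) ∅) ∂(jointLaw D) := by
  set u : ℕ → ℝ≥0∞ := fun k => 2 ^ k * ∫⁻ ω, level M (2 ^ k) (topOf ω) ∂(jointLaw D) with hu
  set a : ℕ → ℝ≥0∞ := fun j => ∫⁻ ω, zLevel M (2 ^ j) ω ∂(jointLaw D) with ha
  set as : ℝ≥0∞ := ∫⁻ ω, zStrict M ω ∂(jointLaw D) with has
  have h1 := lint_opt_le D (M := M) n0 hn0
  have hu0 : u 0 ≤ 4 * (as + a 0) := by
    simpa [hu, ha, has] using bound_u0 D (M := M)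
  have hu1 : u 1 ≤ 16 * a 0 := by
    simpa [hu, ha] using bound_u1 D (M := M)
  have hu2 : ∀ i, u (i + 2) ≤ 32 * a i := fun i => bound_u D (M := M) i
  have hsum : ∑ k ∈ Finset.range n0, u k ≤ 4 * as + 52 * ∑ j ∈ Finset.range n0, a j := by
    have h2 : ∑ k ∈ Finset.range n0, u k ≤ ∑ k ∈ Finset.range (n0 + 2), u k :=
      Finset.sum_le_sum_of_subset (Finset.range_subset_range.2 (by omega))
    have h3 : ∑ k ∈ Finset.range (n0 + 2), u k =
        ∑ i ∈ Finset.range n0, u (i + 2) + u 1 + u 0 := by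
      rw [Finset.sum_range_succ', Finset.sum_range_succ']
    have h4 : ∑ i ∈ Finset.range n0, u (i + 2) ≤ 32 * ∑ j ∈ Finset.range n0, a j := by
      rw [Finset.mul_sum]
      exact Finset.sum_le_sum (fun i _ => hu2 i)
    have h5 : a 0 ≤ ∑ j ∈ Finset.range n0, a j :=
      Finset.single_le_sum (f := a) (fun _ _ => zero_le) (Finset.mem_range.2 (by omega))
    calc ∑ k ∈ Finset.range n0, u k ≤ ∑ i ∈ Finset.range n0, u (i + 2) + u 1 + u 0 := h3 ▸ h2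
      _ ≤ 32 * ∑ j ∈ Finset.range n0, a j + 16 * a 0 + 4 * (as + a 0) := by gcongr
      _ = 4 * as + (32 * ∑ j ∈ Finset.range n0, a j + 20 * a 0) := by ring
      _ ≤ 4 * as + (32 * ∑ j ∈ Finset.range n0, a j + 20 * ∑ j ∈ Finset.range n0, a j) := by gcongr
      _ = 4 * as + 52 * ∑ j ∈ Finset.range n0, a j := by ring
  have hvals : as + ∑ j ∈ Finset.range n0, a j ≤ ∑ s, ∫⁻ ω, valueOf (fun e => (ω e).2)
      (run M s (fun e => (ω e).1) (fun e => (ω e).2) (π s ω) ∅) ∂(jointLaw D) := by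
    rw [Fintype.sum_option, ← Fin.sum_univ_eq_sum_range]
    refine add_le_add ?_ (Finset.sum_le_sum (fun j _ => ?_))
    · exact lintegral_mono (fun ω => value_ge_zStrict ω (hπ none ω))
    · exact lintegral_mono (fun ω => value_ge_zLevel j ω (hπ (some j) ω))
  calc ∫⁻ ω, optOf M (fun e => (ω e).2) ∂(jointLaw D)
      ≤ ∑ k ∈ Finset.range n0, u k := h1
    _ ≤ 4 * as + 52 * ∑ j ∈ Finset.range n0, a j := hsum
    _ ≤ 52 * as + 52 * ∑ j ∈ Finset.range n0, a j := by gcongr; norm_num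
    _ = 52 * (as + ∑ j ∈ Finset.range n0, a j) := by ring
    _ ≤ _ := by gcongr

end Vale.Agent.P331
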