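import Vale.Agent.P331.Swap

/-!
The lower bounds for the rules, and the competitive ratio `1/(52 (log₂ r + 2))`.
-/

open MeasureTheory Finset
open scoped ENNReal NNReal

set_option linter.unusedSectionVars false

namespace Vale.Agent.P331

variable {E : Type} [Fintype E] [DecidableEq E] {M : Matroid E}

/-- Sample coordinate, in extended reals. -/
noncomputable def sOf (ω : E → ℝ≥0 × ℝ≥0) (e : E) : ℝ≥0∞ := ((ω e).1 : ℝ≥0∞)

/-- Value coordinate, in extended reals. -/
noncomputable def vOf (ω : E → ℝ≥0 × ℝ≥0) (e : E) : ℝ≥0∞ := ((ω e).2 : ℝ≥0∞)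

/-- The larger of sample and value. -/
noncomputable def topOf (ω : E → ℝ≥0 × ℝ≥0) (e : E) : ℝ≥0∞ := ((max (ω e).1 (ω e).2 : ℝ≥0) : ℝ≥0∞)

theorem measurable_sOf (e : E) : Measurable (fun ω : E → ℝ≥0 × ℝ≥0 => sOf ω e) :=
  measurable_coe_nnreal_ennreal.comp (measurable_fst.comp (measurable_pi_apply e))

theorem measurable_vOf (e : E) : Measurable (fun ω : E → ℝ≥0 × ℝ≥0 => vOf ω e) :=
  measurable_coe_nnreal_ennreal.comp (measurable_snd.comp (measurable_pi_apply e))

theorem measurable_topOf (e : E) : Measurable (fun ω : E → ℝ≥0 × ℝ≥0 => topOf ω e) :=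
  measurable_coe_nnreal_ennreal.comp
    ((measurable_fst.comp (measurable_pi_apply e)).max (measurable_snd.comp (measurable_pi_apply e)))

theorem meas_sup {ι : Type} (s : Finset ι) {f : ι → (E → ℝ≥0 × ℝ≥0) → ℝ≥0∞}
    (hf : ∀ i ∈ s, Measurable (f i)) : Measurable (fun ω => s.sup (fun i => f i ω)) := by
  classical
  induction s using Finset.induction_on with
  | empty => simp
  | insert a s ha ih =>
      simp only [Finset.sup_insert]
      exact (hf a (Finset.mem_insert_self _ _)).sup
        (ih (fun i hi => hf i (Finset.mem_insert_of_mem hi)))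

theorem meas_inf {ι : Type} (s : Finset ι) {f : ι → (E → ℝ≥0 × ℝ≥0) → ℝ≥0∞}
    (hf : ∀ i ∈ s, Measurable (f i)) : Measurable (fun ω => s.inf (fun i => f i ω)) := by
  classical
  induction s using Finset.induction_on with
  | empty => simp
  | insert a s ha ih =>
      simp only [Finset.inf_insert]
      exact (hf a (Finset.mem_insert_self _ _)).inf
        (ih (fun i hi => hf i (Finset.mem_insert_of_mem hi)))

theorem measurable_level (k : ℕ) {x : (E → ℝ≥0 × ℝ≥0) → E → ℝ≥0∞}
    (hx : ∀ e, Measurable (fun ω => x ω e)) : Measurable (fun ω => level M k (x ω)) :=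
  meas_sup _ (fun I _ => meas_inf I (fun e _ => hx e))

/-- The best size of an independent set with values at least `y`. -/
noncomputable def sizeAbove (M : Matroid E) (y : ℝ≥0∞) (V : E → ℝ≥0∞) : ℝ≥0∞ := by
  classical
  exact (allIndep M).sup (fun I => if ∀ e ∈ I, y ≤ V e then (I.card : ℝ≥0∞) else 0)

/-- Lower bound for the rule with seed `some j`, where `k = 2 ^ j`. -/
noncomputable def zLevel (M : Matroid E) (k : ℕ) (ω : E → ℝ≥0 × ℝ≥0) : ℝ≥0∞ :=
  level M k (sOf ω) * sizeAbove M (level M k (sOf ω)) (vOf ω)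

open Classical in
/-- The nonloops. -/
noncomputable def nonloops (M : Matroid E) : Finset E :=
  univ.filter (fun e => M.Indep ({e} : Set E))

open Classical in
/-- Lower bound for the rule with seed `none`. -/
noncomputable def zStrict (M : Matroid E) (ω : E → ℝ≥0 × ℝ≥0) : ℝ≥0∞ :=
  ((nonloops M).sup fun e => if level M 1 (sOf ω) < vOf ω e then (1 : ℝ≥0∞) else 0) *
    ((nonloops M).inf fun e => if level M 1 (sOf ω) < vOf ω e then vOf ω e else ⊤)

theorem measurable_zLevel (k : ℕ) : Measurable (zLevel M k) := by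
  classical
  refine (measurable_level k measurable_sOf).mul ?_
  refine meas_sup _ (fun I _ => ?_)
  refine Measurable.ite ?_ measurable_const measurable_const
  have : {ω : E → ℝ≥0 × ℝ≥0 | ∀ e ∈ I, level M k (sOf ω) ≤ vOf ω e} =
      ⋂ e ∈ I, {ω | level M k (sOf ω) ≤ vOf ω e} := by
    ext ω; simp
  rw [this]
  exact Finset.measurableSet_biInter _
    (fun e _ => measurableSet_le (measurable_level k measurable_sOf) (measurable_vOf e))

theorem measurable_zStrict : Measurable (zStrict M) := by
  classical
  have hset (e : E) : MeasurableSet {ω : E → ℝ≥0 × ℝ≥0 | level M 1 (sOf ω) < vOf ω e} :=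
    measurableSet_lt (measurable_level 1 measurable_sOf) (measurable_vOf e)
  refine Measurable.mul ?_ ?_
  · exact meas_sup _ (fun e _ => Measurable.ite (hset e) measurable_const measurable_const)
  · exact meas_inf _ (fun e _ => Measurable.ite (hset e) (measurable_vOf e) measurable_const)

/-! ### The online rule collects at least the lower bounds. -/

theorem value_ge_zLevel {n : ℕ} (j : Fin n) (ω : E → ℝ≥0 × ℝ≥0) {l : List E} (hl : ∀ e, e ∈ l) :
    zLevel M (2 ^ (j : ℕ)) ω ≤
      valueOf (fun e => (ω e).2)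
        (run M (some j) (fun e => (ω e).1) (fun e => (ω e).2) l ∅) := by
  classical
  set R := run M (some j) (fun e => (ω e).1) (fun e => (ω e).2) l ∅ with hR
  set T := level M (2 ^ (j : ℕ)) (sOf ω) with hT
  obtain ⟨_, hp, _⟩ := run_props (M := M) (some j) (fun e => (ω e).1) (fun e => (ω e).2) hl
  have hsize : sizeAbove M T (vOf ω) ≤ (R.card : ℝ≥0∞) := by
    refine Finset.sup_le (fun I hI => ?_)
    split_ifs with h
    · have := card_le_run (M := M) (some j) (fun e => (ω e).1) (fun e => (ω e).2) hl
        (mem_allIndep.1 hI) (fun e he => h e he)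
      exact_mod_cast this
    · exact zero_le
  have hval : (R.card : ℝ≥0∞) * T ≤ valueOf (fun e => (ω e).2) R := by
    have : ∑ _e ∈ R, T ≤ ∑ e ∈ R, ((ω e).2 : ℝ≥0∞) := Finset.sum_le_sum (fun e he => hp e he)
    simpa [valueOf, Finset.sum_const, nsmul_eq_mul] using this
  calc zLevel M (2 ^ (j : ℕ)) ω = T * sizeAbove M T (vOf ω) := rfl
    _ ≤ T * (R.card : ℝ≥0∞) := by gcongr
    _ = (R.card : ℝ≥0∞) * T := mul_comm _ _
    _ ≤ _ := hval

theorem value_ge_zStrict {n : ℕ} (ω : E → ℝ≥0 × ℝ≥0) {l : List E} (hl : ∀ e, e ∈ l) :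
    zStrict M ω ≤
      valueOf (fun e => (ω e).2)
        (run M (none : Option (Fin n)) (fun e => (ω e).1) (fun e => (ω e).2) l ∅) := by
  classical
  set R := run M (none : Option (Fin n)) (fun e => (ω e).1) (fun e => (ω e).2) l ∅ with hR
  set T := level M 1 (sOf ω) with hT
  obtain ⟨hind, hp, hmax⟩ := run_props (M := M) (none : Option (Fin n)) (fun e => (ω e).1)
    (fun e => (ω e).2) hl
  by_cases hex : ∃ e ∈ nonloops M, T < vOf ω e
  · obtain ⟨e, he, het⟩ := hex
    have hne : R.Nonempty := by
      by_contra hemp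
      rw [Finset.not_nonempty_iff_eq_empty] at hemp
      rcases hmax e het with h | h
      · rw [← hR, hemp] at h
        simp at h
      · rw [← hR, hemp] at h
        apply h
        have hes : M.Indep ({e} : Set E) := by
          simpa [nonloops] using he
        simpa using hes
    obtain ⟨f, hf⟩ := hne
    have hfn : f ∈ nonloops M := by
      have : M.Indep ({f} : Set E) := hind.subset (by simpa using hf)
      simpa [nonloops] using this
    have hfp : T < vOf ω f := hp f hf
    have h1 : ((nonloops M).sup fun e => if T < vOf ω e then (1 : ℝ≥0∞) else 0) ≤ 1 := by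
      refine Finset.sup_le (fun i _ => ?_)
      split_ifs <;> simp
    have h2 : ((nonloops M).inf fun e => if T < vOf ω e then vOf ω e else ⊤) ≤ vOf ω f := by
      refine (Finset.inf_le hfn).trans ?_
      simp [hfp]
    have h3 : vOf ω f ≤ valueOf (fun e => (ω e).2) R :=
      Finset.single_le_sum (f := fun e => ((ω e).2 : ℝ≥0∞)) (fun _ _ => zero_le) hf
    calc zStrict M ω ≤ 1 * vOf ω f := mul_le_mul' h1 h2
      _ = vOf ω f := one_mul _
      _ ≤ _ := h3
  · push Not at hex
    have h0 : ((nonloops M).sup fun e => if T < vOf ω e then (1 : ℝ≥0∞) else 0) = 0 := by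
      refine le_antisymm (Finset.sup_le (fun e he => ?_)) (zero_le)
      rw [if_neg (not_lt.2 (hex e he))]
    simp only [zStrict, ← hT, h0, zero_mul]
    exact zero_le

/-! ### Facts after a swap -/

theorem sOf_le_topOf (ω : E → ℝ≥0 × ℝ≥0) (e : E) : sOf ω e ≤ topOf ω e := by
  simp only [sOf, topOf]
  exact_mod_cast le_max_left _ _

theorem vOf_le_topOf (ω : E → ℝ≥0 × ℝ≥0) (e : E) : vOf ω e ≤ topOf ω e := by
  simp only [vOf, topOf]
  exact_mod_cast le_max_right _ _

theorem topOf_swapA (A : Finset E) (ω : E → ℝ≥0 × ℝ≥0) (e : E) : topOf (swapA A ω) e = topOf ω e := by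
  simp only [topOf, swapA]
  by_cases h : e ∈ A
  · simp [h, max_comm]
  · simp [h]

theorem vOf_eq_of_vTop {ω : E → ℝ≥0 × ℝ≥0} {e : E} (h : vTop ω e) : vOf ω e = topOf ω e := by
  simp only [vOf, topOf]
  rw [max_eq_right h]

theorem sOf_eq_of_sTop {ω : E → ℝ≥0 × ℝ≥0} {e : E} (h : sTop ω e) : sOf ω e = topOf ω e := by
  simp only [sOf, topOf]
  rw [max_eq_left h]

/-- The main level bound at the good swaps. -/
theorem level_bound (k n : ℕ) (hkn : 3 * k ≤ n + 1) (hk : 1 ≤ k) (ω : E → ℝ≥0 × ℝ≥0) :
    ∃ I J : Finset E, Disjoint I J ∧ ∀ A, Good ω I J A →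
      (k : ℝ≥0∞) * level M n (topOf ω) ≤ 2 * zLevel M k (swapA A ω) := by
  classical
  by_cases h0 : level M n (topOf ω) = 0
  · refine ⟨∅, ∅, disjoint_bot_left, fun A _ => ?_⟩
    simp [h0]
  have hkn' : k ≤ n := by omega
  have h0k : level M k (topOf ω) ≠ 0 := by
    intro h
    apply h0
    exact le_antisymm ((level_antitone hkn' _).trans (le_of_eq h)) (zero_le)
  obtain ⟨Ik, hIk, hIkc, hIkt⟩ := exists_of_level_ne_zero h0k
  obtain ⟨In, hIn, hInc, hInt⟩ := exists_of_level_ne_zero h0
  refine ⟨Ik, In \ Ik, Finset.disjoint_sdiff, fun A hA => ?_⟩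
  obtain ⟨hA1, hA2⟩ := hA
  set ω' := swapA A ω with hω'
  have htop : topOf ω' = topOf ω := funext (topOf_swapA A ω)
  -- the sample sees level `n`
  have hJcard : n - k ≤ (In \ Ik).card := by
    have := Finset.le_card_sdiff Ik In
    omega
  set J' := (In \ Ik).filter (fun e => sTop ω' e) with hJ'
  have hJ'c : k ≤ J'.card := by omega
  obtain ⟨J2, hJ2, hJ2c⟩ := Finset.exists_subset_card_eq hJ'c
  have hJ2sub : J2 ⊆ In := fun e he =>
    (Finset.mem_sdiff.1 (Finset.mem_filter.1 (hJ2 he)).1).1
  have hT1 : level M n (topOf ω) ≤ level M k (sOf ω') := by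
    refine le_level (hIn.subset (by exact_mod_cast hJ2sub)) hJ2c (fun e he => ?_)
    have h1 : sTop ω' e := (Finset.mem_filter.1 (hJ2 he)).2
    rw [sOf_eq_of_sTop h1, htop]
    exact hInt e (hJ2sub he)
  have hT2 : level M k (sOf ω') ≤ level M k (topOf ω) := by
    rw [← htop]
    exact level_mono (sOf_le_topOf ω')
  -- the values see `k / 2` elements
  set I' := Ik.filter (fun e => vTop ω' e) with hI'
  have hsize : (I'.card : ℝ≥0∞) ≤ sizeAbove M (level M k (sOf ω')) (vOf ω') := by
    have hI'ind : M.Indep (I' : Set E) := hIk.subset (by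
      exact_mod_cast Finset.filter_subset _ _)
    have hcond : ∀ e ∈ I', level M k (sOf ω') ≤ vOf ω' e := by
      intro e he
      obtain ⟨he1, he2⟩ := Finset.mem_filter.1 he
      rw [vOf_eq_of_vTop he2, htop]
      exact hT2.trans (hIkt e he1)
    have := Finset.le_sup (f := fun I : Finset E =>
      if ∀ e ∈ I, level M k (sOf ω') ≤ vOf ω' e then (I.card : ℝ≥0∞) else 0) (mem_allIndep.2 hI'ind)
    rw [if_pos hcond] at this
    simpa [sizeAbove] using this
  have hk2 : (k : ℝ≥0∞) ≤ 2 * (I'.card : ℝ≥0∞) := by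
    have : k ≤ 2 * I'.card := by
      have := hA1
      rw [hIkc] at this
      exact this
    exact_mod_cast this
  calc (k : ℝ≥0∞) * level M n (topOf ω)
      ≤ (2 * (I'.card : ℝ≥0∞)) * level M k (sOf ω') := mul_le_mul' hk2 hT1
    _ ≤ (2 * sizeAbove M (level M k (sOf ω')) (vOf ω')) * level M k (sOf ω') := by gcongr
    _ = 2 * zLevel M k ω' := by
        simp only [zLevel]
        ring

/-- The bound for the top level. -/
theorem top_bound (ω : E → ℝ≥0 × ℝ≥0) :
    ∃ I J : Finset E, Disjoint I J ∧ ∀ A, Good ω I J A →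
      level M 1 (topOf ω) ≤ zStrict M (swapA A ω) + zLevel M 1 (swapA A ω) := by
  classical
  by_cases h0 : level M 1 (topOf ω) = 0
  · refine ⟨∅, ∅, disjoint_bot_left, fun A _ => ?_⟩
    simp [h0]
  obtain ⟨I1, hI1, hI1c, hI1t⟩ := exists_of_level_ne_zero h0
  obtain ⟨z, rfl⟩ := Finset.card_eq_one.1 hI1c
  have hzt : level M 1 (topOf ω) ≤ topOf ω z := hI1t z (Finset.mem_singleton_self z)
  have hzn : M.Indep ({z} : Set E) := by simpa using hI1
  have hzN : z ∈ nonloops M := by simpa [nonloops] using hzn
  -- the main computation, given a dominating element `y` for the others (if any)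
  have main : ∀ J : Finset E, (∀ e ∈ nonloops M, e ≠ z → ∃ y ∈ J, M.Indep ({y} : Set E) ∧
      topOf ω e ≤ topOf ω y) → ∀ A, Good ω {z} J A →
      J.card = 1 ∨ J.card = 0 →
      level M 1 (topOf ω) ≤ zStrict M (swapA A ω) + zLevel M 1 (swapA A ω) := by
    intro J hJ A hA hJc
    obtain ⟨hA1, hA2⟩ := hA
    set ω' := swapA A ω with hω'
    have htop : topOf ω' = topOf ω := funext (topOf_swapA A ω)
    have hzv : vTop ω' z := by
      by_contra hne
      have : ({z} : Finset E).filter (fun e => vTop ω' e) = ∅ := by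
        simp [Finset.filter_singleton, hne]
      rw [this] at hA1
      simp at hA1
    have hVz : vOf ω' z = topOf ω z := by rw [vOf_eq_of_vTop hzv, htop]
    have hJs : ∀ y ∈ J, sTop ω' y := by
      intro y hy
      rcases hJc with hc | hc
      · obtain ⟨y0, rfl⟩ := Finset.card_eq_one.1 hc
        have : y = y0 := Finset.mem_singleton.1 hy
        subst this
        by_contra hne
        have : ({y} : Finset E).filter (fun e => sTop ω' e) = ∅ := by
          simp [Finset.filter_singleton, hne]
        rw [this] at hA2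
        simp at hA2
      · rw [Finset.card_eq_zero.1 hc] at hy
        simp at hy
    set g := level M 1 (topOf ω) with hg
    set T := level M 1 (sOf ω') with hT
    have hTg : T ≤ g := by
      rw [hg, ← htop]
      exact level_mono (sOf_le_topOf ω')
    by_cases hlt : T < g
    · refine le_trans ?_ le_self_add
      have hzc : T < vOf ω' z := hlt.trans_le (by rw [hVz]; exact hzt)
      have h1 : (1 : ℝ≥0∞) ≤ (nonloops M).sup fun e => if T < vOf ω' e then (1 : ℝ≥0∞) else 0 := by
        have := Finset.le_sup (f := fun e => if T < vOf ω' e then (1 : ℝ≥0∞) else 0) hzN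
        simpa [hzc] using this
      have h2 : g ≤ (nonloops M).inf fun e => if T < vOf ω' e then vOf ω' e else ⊤ := by
        refine Finset.le_inf (fun e he => ?_)
        by_cases hez : e = z
        · subst hez
          simp only [hzc, if_true]
          rw [hVz]
          exact hzt
        · obtain ⟨y, hy, hyi, hey⟩ := hJ e he hez
          have hST : topOf ω y ≤ T := by
            have h3 : topOf ω y = sOf ω' y := by
              rw [sOf_eq_of_sTop (hJs y hy), htop]
            rw [h3]
            refine le_level (by simpa using hyi) (Finset.card_singleton y) ?_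
            intro f hf
            rw [Finset.mem_singleton.1 hf]
          have hnot : ¬ T < vOf ω' e := by
            refine not_lt.2 ((vOf_le_topOf ω' e).trans ?_)
            rw [htop]
            exact hey.trans hST
          simp [hnot]
      calc g = 1 * g := (one_mul g).symm
        _ ≤ _ := mul_le_mul' h1 h2
    · refine le_trans ?_ le_add_self
      have hgT : g ≤ T := not_lt.1 hlt
      have hsize : (1 : ℝ≥0∞) ≤ sizeAbove M T (vOf ω') := by
        have hc : ∀ e ∈ ({z} : Finset E), T ≤ vOf ω' e := by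
          intro e he
          rw [Finset.mem_singleton.1 he, hVz]
          exact hTg.trans hzt
        have := Finset.le_sup (f := fun I : Finset E =>
          if ∀ e ∈ I, T ≤ vOf ω' e then (I.card : ℝ≥0∞) else 0) (mem_allIndep.2 hI1)
        rw [if_pos hc] at this
        simpa [sizeAbove] using this
      calc g ≤ T * 1 := by simpa using hgT
        _ ≤ T * sizeAbove M T (vOf ω') := by gcongr
        _ = zLevel M 1 ω' := rfl
  by_cases hex : ((nonloops M).erase z).Nonempty
  · obtain ⟨y, hy, hymax⟩ := Finset.exists_max_image _ (topOf ω) hex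
    have hyz : y ≠ z := (Finset.mem_erase.1 hy).1
    have hyn : M.Indep ({y} : Set E) := by
      have := (Finset.mem_erase.1 hy).2
      simpa [nonloops] using this
    refine ⟨{z}, {y}, by simpa using hyz.symm, fun A hA => ?_⟩
    refine main {y} (fun e he hez => ⟨y, Finset.mem_singleton_self y, hyn,
      hymax e (Finset.mem_erase.2 ⟨hez, he⟩)⟩) A hA (Or.inl (Finset.card_singleton y))
  · refine ⟨{z}, ∅, disjoint_bot_right, fun A hA => ?_⟩
    refine main ∅ (fun e he hez => ?_) A hA (Or.inr Finset.card_empty)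
    exact absurd ⟨e, Finset.mem_erase.2 ⟨hez, he⟩⟩ hex

end Vale.Agent.P331
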