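import Vale.Agent.P331.Comb

/-!
Symmetry between the sample and the value of each element, and the averaging lemma.
-/

open MeasureTheory Finset
open scoped ENNReal NNReal

set_option linter.unusedSectionVars false

namespace Vale.Agent.P331

variable {E : Type} [Fintype E] [DecidableEq E]

/-- Exchange sample and value on the elements of `A`. -/
def swapA (A : Finset E) (ω : E → ℝ≥0 × ℝ≥0) : E → ℝ≥0 × ℝ≥0 :=
  fun e => if e ∈ A then (ω e).swap else ω e

theorem measurable_swapA (A : Finset E) : Measurable (swapA A) := by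
  refine measurable_pi_lambda _ (fun e => ?_)
  by_cases h : e ∈ A
  · simp only [swapA, h, if_true]
    exact measurable_swap.comp (measurable_pi_apply e)
  · simp only [swapA, h, if_false]
    exact measurable_pi_apply e

variable (D : E → Measure ℝ≥0) [∀ e, IsProbabilityMeasure (D e)]

/-- The joint law of samples and values. -/
noncomputable def jointLaw : Measure (E → ℝ≥0 × ℝ≥0) :=
  Measure.pi (fun e => (D e).prod (D e))

theorem map_swapA (A : Finset E) : (jointLaw D).map (swapA A) = jointLaw D := by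
  have h := Measure.pi_map_pi (μ := fun e => (D e).prod (D e))
    (f := fun e => if e ∈ A then Prod.swap else id) (fun e => by
      by_cases h : e ∈ A
      · simp only [h, if_true]
        exact measurable_swap.aemeasurable
      · simp only [h, if_false]
        exact measurable_id.aemeasurable)
  have h2 : (fun (x : E → ℝ≥0 × ℝ≥0) (i : E) => (if i ∈ A then Prod.swap else id) (x i)) = swapA A := by
    funext x i
    by_cases h : i ∈ A <;> simp [swapA, h]
  rw [h2] at h
  simp only [jointLaw]
  rw [h]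
  congr 1
  funext e
  by_cases h' : e ∈ A
  · simp only [h', if_true]
    exact Measure.prod_swap
  · simp only [h', if_false]
    exact Measure.map_id

theorem lintegral_swapA {Z : (E → ℝ≥0 × ℝ≥0) → ℝ≥0∞} (hZ : Measurable Z) (A : Finset E) :
    ∫⁻ ω, Z (swapA A ω) ∂(jointLaw D) = ∫⁻ ω, Z ω ∂(jointLaw D) := by
  conv_rhs => rw [← map_swapA D A]
  rw [lintegral_map hZ (measurable_swapA A)]

/-- The value is the larger of the two numbers at `e`. -/
def vTop (ω : E → ℝ≥0 × ℝ≥0) (e : E) : Prop := (ω e).1 ≤ (ω e).2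

/-- The sample is the larger of the two numbers at `e`. -/
def sTop (ω : E → ℝ≥0 × ℝ≥0) (e : E) : Prop := (ω e).2 ≤ (ω e).1

theorem vTop_or_sTop (ω : E → ℝ≥0 × ℝ≥0) (e : E) : vTop ω e ∨ sTop ω e := le_total _ _

theorem vTop_swapA (A : Finset E) (ω : E → ℝ≥0 × ℝ≥0) (e : E) :
    vTop (swapA A ω) e ↔ (if e ∈ A then sTop ω e else vTop ω e) := by
  by_cases h : e ∈ A <;> simp [vTop, sTop, swapA, h]

theorem sTop_swapA (A : Finset E) (ω : E → ℝ≥0 × ℝ≥0) (e : E) :
    sTop (swapA A ω) e ↔ (if e ∈ A then vTop ω e else sTop ω e) := by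
  by_cases h : e ∈ A <;> simp [vTop, sTop, swapA, h]

open Classical in
/-- On `I` the value is on top at least half the time, on `J` the sample is. -/
def Good (ω : E → ℝ≥0 × ℝ≥0) (I J A : Finset E) : Prop :=
  I.card ≤ 2 * (I.filter (fun e => vTop (swapA A ω) e)).card ∧
    J.card ≤ 2 * (J.filter (fun e => sTop (swapA A ω) e)).card

open Classical in
theorem half_or_half (I : Finset E) (P Q : E → Prop) (h : ∀ e ∈ I, P e ∨ Q e) :
    I.card ≤ 2 * (I.filter P).card ∨ I.card ≤ 2 * (I.filter Q).card := by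
  have h1 : I.card ≤ (I.filter P).card + (I.filter Q).card := by
    have : I ⊆ I.filter P ∪ I.filter Q := by
      intro e he
      rcases h e he with h' | h'
      · exact Finset.mem_union_left _ (Finset.mem_filter.2 ⟨he, h'⟩)
      · exact Finset.mem_union_right _ (Finset.mem_filter.2 ⟨he, h'⟩)
    exact (Finset.card_le_card this).trans (Finset.card_union_le _ _)
  omega

/-- For each `A`, one of four flips of `A` is good. -/
theorem exists_good (ω : E → ℝ≥0 × ℝ≥0) {I J : Finset E} (hIJ : Disjoint I J) (A : Finset E) :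
    Good ω I J A ∨ Good ω I J (symmDiff A I) ∨ Good ω I J (symmDiff A J) ∨
      Good ω I J (symmDiff (symmDiff A I) J) := by
  classical
  -- reading of the tops on `I` is unchanged by flipping `J`, and conversely
  have hvJ : ∀ (B : Finset E), ∀ e ∈ I, (vTop (swapA (symmDiff B J) ω) e ↔ vTop (swapA B ω) e) := by
    intro B e he
    have hn : e ∉ J := Finset.disjoint_left.1 hIJ he
    rw [vTop_swapA, vTop_swapA]
    simp [Finset.mem_symmDiff, hn]
  have hsI : ∀ (B : Finset E), ∀ e ∈ J, (sTop (swapA (symmDiff B I) ω) e ↔ sTop (swapA B ω) e) := by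
    intro B e he
    have hn : e ∉ I := Finset.disjoint_right.1 hIJ he
    rw [sTop_swapA, sTop_swapA]
    simp [Finset.mem_symmDiff, hn]
  have hvI' : ∀ (B : Finset E), ∀ e ∈ J, (vTop (swapA (symmDiff B I) ω) e ↔ vTop (swapA B ω) e) := by
    intro B e he
    have hn : e ∉ I := Finset.disjoint_right.1 hIJ he
    rw [vTop_swapA, vTop_swapA]
    simp [Finset.mem_symmDiff, hn]
  have hvI : ∀ (B : Finset E), ∀ e ∈ I, (vTop (swapA (symmDiff B I) ω) e ↔ sTop (swapA B ω) e) := by
    intro B e he
    rw [vTop_swapA, sTop_swapA]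
    by_cases h : e ∈ B <;> simp [Finset.mem_symmDiff, he, h]
  have hsJ : ∀ (B : Finset E), ∀ e ∈ J, (sTop (swapA (symmDiff B J) ω) e ↔ vTop (swapA B ω) e) := by
    intro B e he
    rw [sTop_swapA, vTop_swapA]
    by_cases h : e ∈ B <;> simp [Finset.mem_symmDiff, he, h]
  have hI := half_or_half I (fun e => vTop (swapA A ω) e) (fun e => sTop (swapA A ω) e)
    (fun e _ => vTop_or_sTop _ e)
  have hJ := half_or_half J (fun e => sTop (swapA A ω) e) (fun e => vTop (swapA A ω) e)
    (fun e _ => (vTop_or_sTop _ e).symm)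
  have cardI (B : Finset E) : (I.filter (fun e => vTop (swapA (symmDiff B I) ω) e)).card =
      (I.filter (fun e => sTop (swapA B ω) e)).card :=
    congrArg Finset.card (Finset.filter_congr (hvI B))
  have cardJ (B : Finset E) : (J.filter (fun e => sTop (swapA (symmDiff B J) ω) e)).card =
      (J.filter (fun e => vTop (swapA B ω) e)).card :=
    congrArg Finset.card (Finset.filter_congr (hsJ B))
  have cardI' (B : Finset E) : (I.filter (fun e => vTop (swapA (symmDiff B J) ω) e)).card =
      (I.filter (fun e => vTop (swapA B ω) e)).card :=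
    congrArg Finset.card (Finset.filter_congr (hvJ B))
  have cardJ' (B : Finset E) : (J.filter (fun e => sTop (swapA (symmDiff B I) ω) e)).card =
      (J.filter (fun e => sTop (swapA B ω) e)).card :=
    congrArg Finset.card (Finset.filter_congr (hsI B))
  have cardJ'' (B : Finset E) : (J.filter (fun e => vTop (swapA (symmDiff B I) ω) e)).card =
      (J.filter (fun e => vTop (swapA B ω) e)).card :=
    congrArg Finset.card (Finset.filter_congr (hvI' B))
  rcases hI with hI | hI <;> rcases hJ with hJ | hJ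
  · exact Or.inl ⟨hI, hJ⟩
  · refine Or.inr (Or.inr (Or.inl ⟨?_, ?_⟩))
    · rw [cardI']; exact hI
    · rw [cardJ]; exact hJ
  · refine Or.inr (Or.inl ⟨?_, ?_⟩)
    · rw [cardI]; exact hI
    · rw [cardJ']; exact hJ
  · refine Or.inr (Or.inr (Or.inr ⟨?_, ?_⟩))
    · rw [cardI', cardI]; exact hI
    · rw [cardJ, cardJ'']; exact hJ

/-- Summing over all `A` a function that dominates `B` at good `A`. -/
theorem avg_point (ω : E → ℝ≥0 × ℝ≥0) {I J : Finset E} (hIJ : Disjoint I J)
    (Z : (E → ℝ≥0 × ℝ≥0) → ℝ≥0∞) {B : ℝ≥0∞} (h : ∀ A, Good ω I J A → B ≤ Z (swapA A ω)) :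
    ∑ _A : Finset E, B ≤ 4 * ∑ A : Finset E, Z (swapA A ω) := by
  classical
  let F : Finset E → ℝ≥0∞ := fun A => Z (swapA A ω)
  have hperm (K : Finset E) : ∑ A, F (symmDiff A K) = ∑ A, F A := by
    let φ : Equiv.Perm (Finset E) :=
      Function.Involutive.toPerm (fun A => symmDiff A K) (fun A => by simp [symmDiff_symmDiff_cancel_right])
    exact Equiv.sum_comp φ F
  have hpt : ∀ A, B ≤ F A + F (symmDiff A I) + F (symmDiff A J) + F (symmDiff (symmDiff A I) J) := by
    intro A
    rcases exists_good ω hIJ A with hg | hg | hg | hg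
    · calc B ≤ F A := h _ hg
        _ ≤ _ := by
          refine le_trans ?_ le_self_add
          refine le_trans ?_ le_self_add
          exact le_self_add
    · calc B ≤ F (symmDiff A I) := h _ hg
        _ ≤ _ := by
          refine le_trans ?_ le_self_add
          refine le_trans ?_ le_self_add
          exact le_add_self
    · calc B ≤ F (symmDiff A J) := h _ hg
        _ ≤ _ := by
          refine le_trans ?_ le_self_add
          exact le_add_self
    · exact (h _ hg).trans le_add_self
  calc ∑ _A : Finset E, B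
      ≤ ∑ A, (F A + F (symmDiff A I) + F (symmDiff A J) + F (symmDiff (symmDiff A I) J)) :=
        Finset.sum_le_sum (fun A _ => hpt A)
    _ = ∑ A, F A + ∑ A, F (symmDiff A I) + ∑ A, F (symmDiff A J)
          + ∑ A, F (symmDiff (symmDiff A I) J) := by
        simp only [Finset.sum_add_distrib]
    _ = 4 * ∑ A, F A := by
        have h3 : ∑ A, F (symmDiff (symmDiff A I) J) = ∑ A, F A := by
          let φ : Equiv.Perm (Finset E) :=
            Function.Involutive.toPerm (fun A => symmDiff A I)
              (fun A => by simp [symmDiff_symmDiff_cancel_right])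
          rw [← hperm J]
          exact Equiv.sum_comp φ (fun A => F (symmDiff A J))
        rw [hperm I, hperm J, h3]
        ring

/-- The averaging lemma: if `Z` dominates `B` on a good set of swaps at each point, then
`∫ B ≤ 4 ∫ Z`. -/
theorem avg_bound {Z : (E → ℝ≥0 × ℝ≥0) → ℝ≥0∞} (hZ : Measurable Z) (B : (E → ℝ≥0 × ℝ≥0) → ℝ≥0∞)
    (h : ∀ ω, ∃ I J : Finset E, Disjoint I J ∧ ∀ A, Good ω I J A → B ω ≤ Z (swapA A ω)) :
    ∫⁻ ω, B ω ∂(jointLaw D) ≤ 4 * ∫⁻ ω, Z ω ∂(jointLaw D) := by
  classical
  set N : ℝ≥0∞ := ((Fintype.card (Finset E) : ℕ) : ℝ≥0∞) with hN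
  have hN0 : N ≠ 0 := by
    simp [hN]
  have hNt : N ≠ ⊤ := by simp [hN]
  have hpt : ∀ ω, N * B ω ≤ 4 * ∑ A : Finset E, Z (swapA A ω) := by
    intro ω
    obtain ⟨I, J, hIJ, hA⟩ := h ω
    have := avg_point ω hIJ Z hA
    simpa [hN, Finset.sum_const, nsmul_eq_mul] using this
  have h1 : N * ∫⁻ ω, B ω ∂(jointLaw D) ≤ 4 * (N * ∫⁻ ω, Z ω ∂(jointLaw D)) := by
    calc N * ∫⁻ ω, B ω ∂(jointLaw D) = ∫⁻ ω, N * B ω ∂(jointLaw D) :=
          (lintegral_const_mul' N _ hNt).symm
      _ ≤ ∫⁻ ω, 4 * ∑ A : Finset E, Z (swapA A ω) ∂(jointLaw D) := lintegral_mono hpt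
      _ = 4 * ∫⁻ ω, ∑ A : Finset E, Z (swapA A ω) ∂(jointLaw D) :=
          lintegral_const_mul' 4 _ (by simp)
      _ = 4 * ∑ A : Finset E, ∫⁻ ω, Z (swapA A ω) ∂(jointLaw D) := by
          congr 1
          exact lintegral_finsetSum _ (fun A _ => hZ.comp (measurable_swapA A))
      _ = 4 * (N * ∫⁻ ω, Z ω ∂(jointLaw D)) := by
          simp only [lintegral_swapA D hZ, Finset.sum_const, Finset.card_univ, nsmul_eq_mul, hN]
  have h2 : N * ∫⁻ ω, B ω ∂(jointLaw D) ≤ N * (4 * ∫⁻ ω, Z ω ∂(jointLaw D)) := by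
    refine h1.trans (le_of_eq ?_)
    ring
  exact (ENNReal.mul_le_mul_iff_right hN0 hNt).1 h2

end Vale.Agent.P331
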